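import Vale.Agent.P097.H226.W.Defs
import Vale.Agent.P097.H845.St.Chain
import Vale.Agent.P097.H315.Marc

/-!
# P097 / case [c] / block (T) in straight coordinates: literal Props

Window = `(y, x, ρ)`, `y x` real, `0 < ρ`; axis point `pt y x ρ`; piece `Pc X om y x ρ` (convex
compact box in the base quadrant; both from H845/St/Chain); size `Es = min 1 (diam (L '' Pc))`.
Class of windows: `|y| ≤ 1/4`, `|x| ≤ 1/4`, `0 < ρ ≤ 1/(4X)`, `x` over labels or over gaps.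
-/

set_option linter.all false

open Complex Metric Filter Topology Set MeasureTheory
open scoped ComplexConjugate ENNReal

namespace Vale.Agent.P097.H509.St

open Vale.Agent.P097.TC Vale.Agent.P097.H226.W Vale.Agent.P097.H315 Vale.Agent.P097.H845.St

/-- the line -/
def LL (al p : ℂ × ℂ → ℂ) (z : ℂ × ℂ) : ℂ × ℂ := (al z, p z)

/-- size of the window `(y, x, ρ)` -/
noncomputable def Es (L : ℂ × ℂ → ℂ × ℂ) (X om y x ρ : ℝ) : ℝ :=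
  min 1 (diam (L '' Pc X om y x ρ))

/-- translation to the apex `(y, x)` -/
def tr (y x : ℝ) (z : ℂ × ℂ) : ℂ × ℂ := ((y : ℂ) + z.1, (x : ℂ) + z.2)

/-- the window `(y, x, h)` is mid-level, near a non R2 position, with bounded `log |E_j|` -/
def MV (b : ℝ) (F : ℂ → ℂ) (al th : ℂ × ℂ → ℂ) (X om e V y x h : ℝ) : Prop :=
  Md b F (th ∘ tr y x) X om e h ∧ |Vq F (al ∘ tr y x) (th ∘ tr y x) h| ≤ V

/-- **(G)**: the window `(y₀, x₀, r)` with size `E₀` dominates all windows of the class -/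
def GG (L : ℂ × ℂ → ℂ × ℂ) (X om C₀ E₀ y₀ x₀ r : ℝ) : Prop :=
  ∀ y x ρ : ℝ, |y| ≤ 1 / 4 → |x| ≤ 1 / 4 → 0 < ρ → ρ ≤ 1 / (4 * X) →
    Es L X om y x ρ ≤ C₀ * E₀ * Real.sqrt ((|y - y₀| + |x - x₀| + ρ + r) / r) *
      ((|y - y₀| + |x - x₀| + ρ + r) / ρ) ^ 2

/-- periodicity of the curve (fields of `A5.Crv`) -/
structure Per (b : ℝ) (F q : ℂ → ℂ) : Prop where
  Fp : ∀ x ∈ Sb b, F (x + 1) = F x + 2 * Real.pi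
  qp : ∀ x ∈ Sb b, q (x + 1) = q x

/-- **the pick**: window `(y₀, x₀, r)` of size `E₀`; pieces with `Xp`, `op`, ancestors with
`X`, `om` -/
structure Pick (b : ℝ) (F : ℂ → ℂ) (al p th : ℂ × ℂ → ℂ) (A B : Set ℝ)
    (Xp op X om e V C₀ η κ y₀ x₀ r E₀ : ℝ) : Prop where
  loc : |y₀| + |x₀| + r ≤ κ
  r0 : 0 < r
  E0 : 0 < E₀
  eq : E₀ = Es (LL al p) Xp op y₀ x₀ r
  mz : Marc.Mz A B x₀ r < ENNReal.ofReal η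
  gg : GG (LL al p) Xp op C₀ E₀ y₀ x₀ r
  mv : ∀ h : ℝ, r ≤ h → (X + 5) * h ≤ 1 / 2 → MV b F al th X om e V y₀ x₀ h
  lg : r * max (Real.log E₀⁻¹) 0 ≤ κ

/-- **row SEL** : selection of the pick, all in the straight world at the nested apex `(0, 0)`.
`A`, `B` = labels and Marcinkiewicz box in the scaled variable; the constants with a prime depend
only on the curve and on `X om e V` -/
def SelSt : Prop := ∀ {Λ b : ℝ} {F q : ℂ → ℂ}, Cv Λ b F q → Grw b F q → Per b F q →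
  ∀ X om e V : ℝ, 2 ≤ X → 0 < om → om ≤ 1 / 2 → 0 < e → 0 ≤ V →
  ∃ Xp op X' om' e' V' C₀ : ℝ, (2 ≤ Xp ∧ 0 < op ∧ op ≤ 1 / 2 ∧ Xp ≤ X' ∧ 0 < om' ∧ om' ≤ op ∧
    0 < e' ∧ 0 ≤ V' ∧ 0 < C₀) ∧
  ∀ η κ : ℝ, 0 < η → 0 < κ → ∀ {δ : ℝ} {al p th : ℂ × ℂ → ℂ}, SW Λ b F q δ 1 al p th →
  (∀ h : ℝ, 0 < h → (X + 5) * h ≤ 1 → Md b F th X om e h ∧ |Vq F al th h| ≤ V) →
  (∀ ε > 0, ∃ y' : ℝ, |y'| < ε ∧
    Tendsto (fun h : ℝ => |(th (pt y' 0 h)).im|) (𝓝[>] 0) (𝓝 b)) →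
  ∀ {A B : Set ℝ}, MeasurableSet B → (0 : ℝ) ∈ A → 8 * Marc.Jm A B 0 ≤ ENNReal.ofReal η →
  ∃ y₀ x₀ r E₀ : ℝ, Pick b F al p th A B Xp op X' om' e' V' C₀ η κ y₀ x₀ r E₀

/-- **row TD** : the lines at the pick, normalised by `E₀`, on compacts of the wide tube, with
growth (`r' = r` : compacts; `r' = R r` : growth `√R (1 + log R)`) -/
def TdSt : Prop := ∀ {Λ b : ℝ} {F q : ℂ → ℂ}, Cv Λ b F q → Grw b F q →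
  ∀ Xp op X om e V C₀ δ : ℝ, 2 ≤ Xp → 0 < op → op ≤ 1 / 2 → Xp ≤ X → 0 < om → om ≤ op →
  0 < e → 0 ≤ V → 0 < C₀ → 0 < δ →
  ∀ W : Set (ℂ × ℂ), IsCompact W → W ⊆ Wd δ →
  ∃ C : ℝ, 0 ≤ C ∧ ∃ τ : ℝ, 0 < τ ∧ τ ≤ 1 ∧ ∃ Z : Set (ℂ × ℂ), IsCompact Z ∧ Z ⊆ Bx 1 ∩ Wd δ ∧
  ∀ {al p th : ℂ × ℂ → ℂ}, SW Λ b F q δ 1 al p th →
  ∀ y₀ x₀ r : ℝ, |y₀| ≤ 1 / 8 → |x₀| ≤ 1 / 8 → 0 < r → r ≤ τ →
  (∀ h : ℝ, r ≤ h → (X + 5) * h ≤ 1 / 2 → MV b F al th X om e V y₀ x₀ h) →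
  ∀ E₀ : ℝ, 0 < E₀ → E₀ ≤ 1 → GG (LL al p) Xp op C₀ E₀ y₀ x₀ r →
  ∀ A : ℝ, 0 ≤ A → (∀ z ∈ Z, ‖LL al p z - LL al p (pt y₀ x₀ r)‖ ≤ Real.exp A) →
  ∀ r' : ℝ, r ≤ r' → r' ≤ τ → ∀ z ∈ W, tr y₀ x₀ ((r' : ℂ) • z) ∈ Bx 1 ∧
    ‖LL al p (tr y₀ x₀ ((r' : ℂ) • z)) - LL al p (pt y₀ x₀ r)‖ ≤
      E₀ * Real.sqrt (r' / r) * (1 + Real.log (r' / r)) *
        Real.exp (C + C * r' * (A + max (Real.log E₀⁻¹) 0))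

/-- **row TD, centred form** (690) : apex `(0, 0)`, (G) in the range of H845/St/Chain -/
def TdC : Prop := ∀ {Λ b : ℝ} {F q : ℂ → ℂ}, Cv Λ b F q → Grw b F q →
  ∀ Xp op X om e V C₀ δ : ℝ, 2 ≤ Xp → 0 < op → op ≤ 1 / 2 → Xp ≤ X → 0 < om → om ≤ op →
  0 < e → 0 ≤ V → 0 < C₀ → 0 < δ →
  ∀ W : Set (ℂ × ℂ), IsCompact W → W ⊆ Wd δ →
  ∃ C : ℝ, 0 ≤ C ∧ ∃ τ : ℝ, 0 < τ ∧ τ ≤ 1 ∧ ∃ Z : Set (ℂ × ℂ), IsCompact Z ∧ Z ⊆ Bx 1 ∩ Wd δ ∧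
  ∀ {al p th : ℂ × ℂ → ℂ}, SW Λ b F q δ 1 al p th →
  ∀ r E₀ : ℝ, 0 < r → 0 < E₀ → E₀ ≤ 1 →
  (∀ h : ℝ, r ≤ h → (X + 5) * h ≤ 1 → Md b F th X om e h ∧ |Vq F al th h| ≤ V) →
  Gd (fun y x h => Es (LL al p) Xp op y x h) C₀ E₀ 0 0 r →
  Osc (LL al p) Xp op (fun y x h => Es (LL al p) Xp op y x h) →
  ∀ A : ℝ, 0 ≤ A → (∀ z ∈ Z, ‖LL al p z - LL al p (pt 0 0 r)‖ ≤ Real.exp A) →
  ∀ r' : ℝ, r ≤ r' → r' ≤ τ → ∀ z ∈ W, (r' : ℂ) • z ∈ Bx 1 ∧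
    ‖LL al p ((r' : ℂ) • z) - LL al p (pt 0 0 r)‖ ≤
      E₀ * Real.sqrt (r' / r) * (1 + Real.log (r' / r)) *
        Real.exp (C + C * r' * (A + max (Real.log E₀⁻¹) 0))

end Vale.Agent.P097.H509.St
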