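import Vale.Agent.P097.H509.St.Defs

/-!
# P097 / block (T), straight coordinates: pieces and sizes
-/

set_option linter.all false

open Complex Metric Filter Topology Set MeasureTheory
open scoped ComplexConjugate ENNReal

namespace Vale.Agent.P097.H509.St

open Vale.Agent.P097.TC Vale.Agent.P097.H226.W Vale.Agent.P097.H315 Vale.Agent.P097.H845.St

/-! ## pieces -/

theorem Pc_convex (X om y x ρ : ℝ) : Convex ℝ (Pc X om y x ρ) := by
  rw [convex_iff_forall_pos]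
  rintro z ⟨a5, a6, a1, a2, a3, a4⟩ z' ⟨b5, b6, b1, b2, b3, b4⟩ s t hs ht hst
  rw [abs_le] at a5 a6 b5 b6
  have e : ∀ c : ℝ, c = s * c + t * c := fun c => by rw [← add_mul, hst, one_mul]
  refine ⟨?_, ?_, ?_, ?_, ?_, ?_⟩
  · rw [abs_le, e (X * ρ), e y]
    simp only [Prod.fst_add, Prod.smul_fst, add_re, smul_re, smul_eq_mul]
    constructor <;> nlinarith
  · rw [abs_le, e (X * ρ), e x]
    simp only [Prod.snd_add, Prod.smul_snd, add_re, smul_re, smul_eq_mul]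
    constructor <;> nlinarith
  · rw [e (om * ρ)]
    simp only [Prod.fst_add, Prod.smul_fst, add_im, smul_im, smul_eq_mul]
    nlinarith
  · rw [e (X * ρ)]
    simp only [Prod.fst_add, Prod.smul_fst, add_im, smul_im, smul_eq_mul]
    nlinarith
  · rw [e (om * ρ)]
    simp only [Prod.snd_add, Prod.smul_snd, add_im, smul_im, smul_eq_mul]
    nlinarith
  · rw [e (X * ρ)]
    simp only [Prod.snd_add, Prod.smul_snd, add_im, smul_im, smul_eq_mul]
    nlinarith

theorem Pc_compact (X om y x ρ : ℝ) : IsCompact (Pc X om y x ρ) := by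
  have e : Pc X om y x ρ =
      ((Set.Icc (y - X * ρ) (y + X * ρ) ×ℂ Set.Icc (-(X * ρ)) (-(om * ρ))) ×ˢ
       (Set.Icc (x - X * ρ) (x + X * ρ) ×ℂ Set.Icc (om * ρ) (X * ρ))) := by
    ext z
    simp only [Pc, Set.mem_setOf_eq, Set.mem_prod, Complex.mem_reProdIm, Set.mem_Icc, abs_le]
    constructor
    · rintro ⟨⟨h5, h6⟩, ⟨h7, h8⟩, h1, h2, h3, h4⟩
      exact ⟨⟨⟨by linarith, by linarith⟩, by linarith, by linarith⟩,
        ⟨by linarith, by linarith⟩, by linarith, by linarith⟩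
    · rintro ⟨⟨⟨h1, h2⟩, h3, h4⟩, ⟨h5, h6⟩, h7, h8⟩
      exact ⟨⟨by linarith, by linarith⟩, ⟨by linarith, by linarith⟩, by linarith, by linarith,
        h7, h8⟩
  rw [e]
  exact (isCompact_Icc.reProdIm isCompact_Icc).prod (isCompact_Icc.reProdIm isCompact_Icc)

/-- the piece lies in the box and in the quadrant -/
theorem Pc_sub {X om y x ρ : ℝ} (hom : 0 < om) (hρ : 0 < ρ) (hX : 0 ≤ X)
    (h1 : |y| + X * ρ < 1) (h2 : |x| + X * ρ < 1) : Pc X om y x ρ ⊆ Bx 1 ∩ Qu := by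
  rintro z ⟨a5, a6, a1, a2, a3, a4⟩
  have h0 : 0 < om * ρ := mul_pos hom hρ
  have b1 := abs_nonneg y
  have b2 := abs_nonneg x
  have c1 : |z.1.re| < 1 := by
    have := abs_add_le (z.1.re - y) y
    rw [sub_add_cancel] at this
    linarith
  have c2 : |z.2.re| < 1 := by
    have := abs_add_le (z.2.re - x) x
    rw [sub_add_cancel] at this
    linarith
  refine ⟨⟨c1, ?_, c2, ?_⟩, ?_, ?_⟩
  · rw [abs_lt]; constructor <;> linarith
  · rw [abs_lt]; constructor <;> linarith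
  · show z.1.im < 0
    linarith
  · show 0 < z.2.im
    linarith

theorem Qu_sub_Wd {δ : ℝ} (hδ : 0 < δ) : Qu ⊆ Wd δ := by
  rintro z ⟨h1, h2⟩
  refine ⟨h2, ?_⟩
  have : 0 < δ * z.2.im := mul_pos hδ h2
  exact h1.trans this

variable {Λ b δ : ℝ} {F q : ℂ → ℂ} {al p th : ℂ × ℂ → ℂ}

theorem _root_.Vale.Agent.P097.H226.W.SW.contL (S : SW Λ b F q δ 1 al p th) :
    ContinuousOn (LL al p) (Bx 1 ∩ Wd δ) :=
  S.dal.continuousOn.prodMk S.dp.continuousOn

theorem bdd_piece (S : SW Λ b F q δ 1 al p th) {X om y x ρ : ℝ} (hom : 0 < om) (hρ : 0 < ρ)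
    (hX : 0 ≤ X) (h1 : |y| + X * ρ < 1) (h2 : |x| + X * ρ < 1) :
    Bornology.IsBounded (LL al p '' Pc X om y x ρ) := by
  have := (Pc_sub hom hρ hX h1 h2).trans (inter_subset_inter_right _ (Qu_sub_Wd S.δ0))
  exact ((Pc_compact X om y x ρ).image_of_continuousOn (S.contL.mono this)).isBounded

/-- small size controls the oscillation on the piece -/
theorem osc_le (S : SW Λ b F q δ 1 al p th) {X om y x ρ : ℝ} (hom : 0 < om) (hρ : 0 < ρ)
    (hX : 0 ≤ X) (h1 : |y| + X * ρ < 1) (h2 : |x| + X * ρ < 1) {s : ℝ} (hs : s < 1)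
    (hE : Es (LL al p) X om y x ρ ≤ s) {z z' : ℂ × ℂ} (hz : z ∈ Pc X om y x ρ)
    (hz' : z' ∈ Pc X om y x ρ) : ‖LL al p z - LL al p z'‖ ≤ s := by
  have hd : diam (LL al p '' Pc X om y x ρ) ≤ s := by
    unfold Es at hE
    rcases le_total 1 (diam (LL al p '' Pc X om y x ρ)) with h | h
    · rw [min_eq_left h] at hE; linarith
    · rwa [min_eq_right h] at hE
  rw [← dist_eq_norm]
  exact (dist_le_diam_of_mem (bdd_piece S hom hρ hX h1 h2) (mem_image_of_mem _ hz)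
    (mem_image_of_mem _ hz')).trans hd

theorem Es_nonneg {L : ℂ × ℂ → ℂ × ℂ} {X om y x ρ : ℝ} : 0 ≤ Es L X om y x ρ :=
  le_min zero_le_one diam_nonneg

theorem Es_le_one {L : ℂ × ℂ → ℂ × ℂ} {X om y x ρ : ℝ} : Es L X om y x ρ ≤ 1 := min_le_left _ _

end Vale.Agent.P097.H509.St
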