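import Vale.Agent.P097.H509.St.Rec

/-!
# P097 / block (T), straight coordinates: (G) and the ancestors at larger scales
-/

set_option linter.all false

open Complex Metric Filter Topology Set MeasureTheory
open scoped ComplexConjugate ENNReal

namespace Vale.Agent.P097.H509.St

open Vale.Agent.P097.TC Vale.Agent.P097.H226.W Vale.Agent.P097.H315 Vale.Agent.P097.H845.St

/-- (G) at the scale `R r` with size `√R E₀` -/
theorem GG.scale {L : ℂ × ℂ → ℂ × ℂ} {X om C₀ E₀ y₀ x₀ r R : ℝ} (h : GG L X om C₀ E₀ y₀ x₀ r)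
    (hC : 0 ≤ C₀) (hE : 0 ≤ E₀) (hr : 0 < r) (hR : 1 ≤ R) :
    GG L X om C₀ (Real.sqrt R * E₀) y₀ x₀ (R * r) := by
  intro y x ρ hy hx hρ hρ'
  refine (h y x ρ hy hx hρ hρ').trans ?_
  have hR0 : 0 < R := by linarith
  have hr' : r ≤ R * r := by nlinarith
  have a1 := abs_nonneg (y - y₀)
  have a2 := abs_nonneg (x - x₀)
  set D := |y - y₀| + |x - x₀| + ρ + r with hD
  set D' := |y - y₀| + |x - x₀| + ρ + R * r with hD'
  have hDD : D ≤ D' := by rw [hD, hD']; linarith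
  have hD0 : 0 < D := by rw [hD]; linarith
  have k1 : Real.sqrt (D / r) ≤ Real.sqrt R * Real.sqrt (D' / (R * r)) := by
    rw [← Real.sqrt_mul hR0.le]
    apply Real.sqrt_le_sqrt
    have : R * (D' / (R * r)) = D' / r := by field_simp
    rw [this]
    gcongr
  have k2 : (D / ρ) ^ 2 ≤ (D' / ρ) ^ 2 := by gcongr
  calc C₀ * E₀ * Real.sqrt (D / r) * (D / ρ) ^ 2
      ≤ C₀ * E₀ * (Real.sqrt R * Real.sqrt (D' / (R * r))) * (D' / ρ) ^ 2 := by gcongr
    _ = _ := by ring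

theorem GG.mono {L : ℂ × ℂ → ℂ × ℂ} {X om C₀ C₁ E₀ y₀ x₀ r : ℝ} (h : GG L X om C₀ E₀ y₀ x₀ r)
    (hE : 0 ≤ E₀) (hC : C₀ ≤ C₁) : GG L X om C₁ E₀ y₀ x₀ r := by
  intro y x ρ hy hx hρ hρ'
  refine (h y x ρ hy hx hρ hρ').trans ?_
  gcongr

end Vale.Agent.P097.H509.St
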