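import Vale.Agent.P097.H509.St.Defs

/-!
# P097 / block (T), straight coordinates: change of apex and scale of the world `SW`
-/

set_option linter.all false

open Complex Metric Filter Topology Set
open scoped ComplexConjugate

namespace Vale.Agent.P097.H509.St

open Vale.Agent.P097.TC Vale.Agent.P097.H226.W Vale.Agent.P097.H845.St

/-- apex change: `z ↦ (y₀, x₀) + c z` -/
noncomputable def sh (y₀ x₀ c : ℝ) (z : ℂ × ℂ) : ℂ × ℂ := ((y₀ : ℂ) + c * z.1, (x₀ : ℂ) + c * z.2)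

theorem sh_1re (y₀ x₀ c : ℝ) (z : ℂ × ℂ) : (sh y₀ x₀ c z).1.re = y₀ + c * z.1.re := by
  simp [sh]
theorem sh_1im (y₀ x₀ c : ℝ) (z : ℂ × ℂ) : (sh y₀ x₀ c z).1.im = c * z.1.im := by
  simp [sh]
theorem sh_2re (y₀ x₀ c : ℝ) (z : ℂ × ℂ) : (sh y₀ x₀ c z).2.re = x₀ + c * z.2.re := by
  simp [sh]
theorem sh_2im (y₀ x₀ c : ℝ) (z : ℂ × ℂ) : (sh y₀ x₀ c z).2.im = c * z.2.im := by
  simp [sh]

theorem sh_diff (y₀ x₀ c : ℝ) : Differentiable ℂ (sh y₀ x₀ c) := by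
  unfold sh
  fun_prop

theorem sh_box {y₀ x₀ c : ℝ} (hc : 0 < c) (h1 : |y₀| + c ≤ 1) (h2 : |x₀| + c ≤ 1) {z : ℂ × ℂ}
    (hz : z ∈ Bx 1) : sh y₀ x₀ c z ∈ Bx 1 := by
  obtain ⟨a1, a2, a3, a4⟩ := hz
  have b1 := abs_nonneg y₀
  have b2 := abs_nonneg x₀
  have k1 : |c * z.1.re| < c := by
    rw [abs_mul, abs_of_pos hc]; nlinarith
  have k2 : |c * z.1.im| < c := by
    rw [abs_mul, abs_of_pos hc]; nlinarith
  have k3 : |c * z.2.re| < c := by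
    rw [abs_mul, abs_of_pos hc]; nlinarith
  have k4 : |c * z.2.im| < c := by
    rw [abs_mul, abs_of_pos hc]; nlinarith
  refine ⟨?_, ?_, ?_, ?_⟩
  · rw [sh_1re]; have := abs_add_le y₀ (c * z.1.re); linarith
  · rw [sh_1im]; linarith
  · rw [sh_2re]; have := abs_add_le x₀ (c * z.2.re); linarith
  · rw [sh_2im]; linarith

theorem sh_Wd {y₀ x₀ c δ : ℝ} (hc : 0 < c) {z : ℂ × ℂ} (hz : z ∈ Wd δ) : sh y₀ x₀ c z ∈ Wd δ := by
  obtain ⟨h1, h2⟩ := hz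
  refine ⟨?_, ?_⟩
  · show 0 < (sh y₀ x₀ c z).2.im
    rw [sh_2im]; positivity
  · show (sh y₀ x₀ c z).1.im < δ * (sh y₀ x₀ c z).2.im
    rw [sh_1im, sh_2im]
    nlinarith

theorem sh_Qu {y₀ x₀ c : ℝ} (hc : 0 < c) {z : ℂ × ℂ} (hz : z ∈ Qu) : sh y₀ x₀ c z ∈ Qu := by
  obtain ⟨h1, h2⟩ := hz
  refine ⟨?_, ?_⟩
  · show (sh y₀ x₀ c z).1.im < 0
    rw [sh_1im]; nlinarith
  · show 0 < (sh y₀ x₀ c z).2.im
    rw [sh_2im]; positivity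

/-- **change of apex and scale**, quadrant world -/
theorem sq_sh {Λ b : ℝ} {F q : ℂ → ℂ} {al p th : ℂ × ℂ → ℂ} (S : SQ Λ b F q 1 al p th)
    {y₀ x₀ c : ℝ} (hc : 0 < c) (h1 : |y₀| + c ≤ 1) (h2 : |x₀| + c ≤ 1) :
    SQ Λ b F q 1 (al ∘ sh y₀ x₀ c) (p ∘ sh y₀ x₀ c) (th ∘ sh y₀ x₀ c) where
  cv := S.cv
  gr := S.gr
  dal := S.dal.comp (sh_diff _ _ _).differentiableOn fun z hz =>
    ⟨sh_box hc h1 h2 hz.1, sh_Qu hc hz.2⟩
  dp := S.dp.comp (sh_diff _ _ _).differentiableOn fun z hz =>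
    ⟨sh_box hc h1 h2 hz.1, sh_Qu hc hz.2⟩
  dth := S.dth.comp (sh_diff _ _ _).differentiableOn fun z hz =>
    ⟨sh_box hc h1 h2 hz.1, sh_Qu hc hz.2⟩
  mem z hz := S.mem _ ⟨sh_box hc h1 h2 hz.1, sh_Qu hc hz.2⟩
  inc z hz := S.inc _ ⟨sh_box hc h1 h2 hz.1, sh_Qu hc hz.2⟩
  smp z hz := S.smp _ ⟨sh_box hc h1 h2 hz.1, sh_Qu hc hz.2⟩

/-- **change of apex and scale** -/
theorem sw_sh {Λ b δ : ℝ} {F q : ℂ → ℂ} {al p th : ℂ × ℂ → ℂ} (S : SW Λ b F q δ 1 al p th)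
    {y₀ x₀ c : ℝ} (hc : 0 < c) (h1 : |y₀| + c ≤ 1) (h2 : |x₀| + c ≤ 1) :
    SW Λ b F q δ 1 (al ∘ sh y₀ x₀ c) (p ∘ sh y₀ x₀ c) (th ∘ sh y₀ x₀ c) where
  sq := sq_sh S.sq hc h1 h2
  δ0 := S.δ0
  dal := S.dal.comp (sh_diff _ _ _).differentiableOn fun z hz =>
    ⟨sh_box hc h1 h2 hz.1, sh_Wd hc hz.2⟩
  dp := S.dp.comp (sh_diff _ _ _).differentiableOn fun z hz =>
    ⟨sh_box hc h1 h2 hz.1, sh_Wd hc hz.2⟩

theorem sh_sh (y₀ x₀ c : ℝ) {y₁ x₁ r : ℝ} (z : ℂ × ℂ) :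
    sh y₀ x₀ c (sh y₁ x₁ r z) = sh (y₀ + c * y₁) (x₀ + c * x₁) (c * r) z := by
  simp only [sh]
  refine Prod.ext ?_ ?_
  · push_cast; ring
  · push_cast; ring

theorem sh_eq (y₀ x₀ c : ℝ) (z : ℂ × ℂ) : sh y₀ x₀ c z = ((y₀ : ℂ), (x₀ : ℂ)) + (c : ℂ) • z := by
  simp only [sh]
  refine Prod.ext ?_ ?_ <;> simp

theorem pt_eq (y x ρ : ℝ) : pt y x ρ = sh y x ρ (ax 1) := by
  simp only [pt, sh, ax]
  refine Prod.ext ?_ ?_
  · simp; ring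
  · simp

theorem pt_tr (y x ρ : ℝ) : pt y x ρ = tr y x (ax ρ) := by
  simp only [pt, tr, ax]
  refine Prod.ext ?_ ?_
  · simp; ring
  · simp

theorem sh_tr (y x c : ℝ) (z : ℂ × ℂ) : sh y x c z = tr y x ((c : ℂ) • z) := by
  simp only [tr, sh]
  refine Prod.ext ?_ ?_ <;> simp

theorem sh_ax (y x c h : ℝ) : sh y x c (ax h) = tr y x (ax (c * h)) := by
  simp only [tr, sh, ax]
  refine Prod.ext ?_ ?_
  · push_cast; ring
  · push_cast; ring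

/-- `Md` after a change of scale -/
theorem md_sh {b : ℝ} {F : ℂ → ℂ} {th : ℂ × ℂ → ℂ} {X om e y x c h : ℝ} (hc : 0 < c) :
    Md b F (th ∘ tr y x) X om e (c * h) ↔ Md b F (th ∘ sh y x c) X om e h := by
  constructor
  · rintro ⟨β, h1, h2, h3, h4, h5⟩
    have e : sh y x c (((c⁻¹ : ℝ) : ℂ) • β) = tr y x β := by
      rw [sh_tr, smul_smul, ← Complex.ofReal_mul, mul_inv_cancel₀ hc.ne']
      simp
    refine ⟨((c⁻¹ : ℝ) : ℂ) • β, ?_, ?_, ?_, ?_, ?_⟩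
    · simp only [Prod.smul_fst, smul_eq_mul, re_ofReal_mul, im_ofReal_mul]
      rw [← mul_neg, le_inv_mul_iff₀ hc]
      linarith
    · simp only [Prod.smul_snd, smul_eq_mul, re_ofReal_mul, im_ofReal_mul]
      rw [le_inv_mul_iff₀ hc]
      linarith
    · rw [norm_smul, Complex.norm_real, Real.norm_eq_abs, abs_of_pos (inv_pos.2 hc),
        inv_mul_le_iff₀ hc]
      linarith
    · simp only [Function.comp, e]; exact h4
    · simp only [Function.comp, e]; exact h5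
  · rintro ⟨β, h1, h2, h3, h4, h5⟩
    have e : tr y x ((c : ℂ) • β) = sh y x c β := (sh_tr y x c β).symm
    refine ⟨(c : ℂ) • β, ?_, ?_, ?_, ?_, ?_⟩
    · simp only [Prod.smul_fst, smul_eq_mul, im_ofReal_mul]
      nlinarith
    · simp only [Prod.smul_snd, smul_eq_mul, im_ofReal_mul]
      nlinarith
    · rw [norm_smul, Complex.norm_real, Real.norm_eq_abs, abs_of_pos hc]
      nlinarith
    · simp only [Function.comp, e]; exact h4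
    · simp only [Function.comp, e]; exact h5

theorem vq_sh (F : ℂ → ℂ) (al th : ℂ × ℂ → ℂ) (y x c h : ℝ) :
    Vq F (al ∘ sh y x c) (th ∘ sh y x c) h = Vq F (al ∘ tr y x) (th ∘ tr y x) (c * h) := by
  simp only [Vq, gg, Function.comp, sh_ax]

/-- `MV` = the two facts of the recentred and rescaled world -/
theorem mv_sh {b : ℝ} {F : ℂ → ℂ} {al th : ℂ × ℂ → ℂ} {X om e V y x c h : ℝ} (hc : 0 < c) :
    MV b F al th X om e V y x (c * h) ↔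
      Md b F (th ∘ sh y x c) X om e h ∧ |Vq F (al ∘ sh y x c) (th ∘ sh y x c) h| ≤ V := by
  rw [MV, md_sh hc, vq_sh]

theorem Md.mono' {b : ℝ} {F : ℂ → ℂ} {th : ℂ × ℂ → ℂ} {X om e X' om' e' h : ℝ} (hh : 0 ≤ h)
    (hX : X ≤ X') (ho : om' ≤ om) (he : e' ≤ e) (H : Md b F th X om e h) :
    Md b F th X' om' e' h := by
  obtain ⟨β, h1, h2, h3, h4, h5⟩ := H
  exact ⟨β, (mul_le_mul_of_nonneg_right ho hh).trans h1,
    (mul_le_mul_of_nonneg_right ho hh).trans h2, h3.trans (mul_le_mul_of_nonneg_right hX hh),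
    h4.trans (by linarith), he.trans h5⟩

theorem tr_zero (z : ℂ × ℂ) : tr 0 0 z = z := by
  simp [tr]

theorem gg_sh (F : ℂ → ℂ) (al th : ℂ × ℂ → ℂ) (y₀ x₀ c : ℝ) (z : ℂ × ℂ) :
    gg F (al ∘ sh y₀ x₀ c) (th ∘ sh y₀ x₀ c) z = gg F al th (sh y₀ x₀ c z) := rfl

theorem norm_le_of {z : ℂ × ℂ} {M : ℝ} (h1 : ‖z.1‖ ≤ M) (h2 : ‖z.2‖ ≤ M) : ‖z‖ ≤ M := by
  rw [Prod.norm_def]; exact max_le h1 h2

end Vale.Agent.P097.H509.St
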