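import Vale.Agent.P097.H509.St.Gro
import Vale.Agent.P097.H509.St.Pcl

/-!
# P097 / block (T), straight coordinates: the centred form of the row TD gives the row
-/

set_option linter.all false

open Complex Metric Filter Topology Set MeasureTheory
open scoped ComplexConjugate ENNReal

namespace Vale.Agent.P097.H509.St

open Vale.Agent.P097.TC Vale.Agent.P097.H226.W Vale.Agent.P097.H315 Vale.Agent.P097.H845.St

theorem LL_sh (al p : ℂ × ℂ → ℂ) (y x c : ℝ) (z : ℂ × ℂ) :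
    LL (al ∘ sh y x c) (p ∘ sh y x c) z = LL al p (sh y x c z) := rfl

/-- image of a piece -/
theorem sh_Pc (X om y₀ x₀ y x ρ : ℝ) {c : ℝ} (hc : 0 < c) :
    sh y₀ x₀ c '' Pc X om y x ρ = Pc X om (y₀ + c * y) (x₀ + c * x) (c * ρ) := by
  have key : ∀ z, z ∈ Pc X om y x ρ ↔ sh y₀ x₀ c z ∈ Pc X om (y₀ + c * y) (x₀ + c * x) (c * ρ) := by
    intro z
    simp only [Pc, mem_setOf_eq, sh_1re, sh_1im, sh_2re, sh_2im]
    have e1 : y₀ + c * z.1.re - (y₀ + c * y) = c * (z.1.re - y) := by ring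
    have e2 : x₀ + c * z.2.re - (x₀ + c * x) = c * (z.2.re - x) := by ring
    rw [e1, e2, abs_mul, abs_mul, abs_of_pos hc]
    have m1 : ∀ a b' : ℝ, (c * a ≤ X * (c * b')) ↔ a ≤ X * b' := fun a b' => by
      rw [show X * (c * b') = c * (X * b') by ring]; exact mul_le_mul_iff_right₀ hc
    have m2 : ∀ a b' : ℝ, (om * (c * b') ≤ c * a) ↔ om * b' ≤ a := fun a b' => by
      rw [show om * (c * b') = c * (om * b') by ring]; exact mul_le_mul_iff_right₀ hc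
    rw [← mul_neg, m1, m1, m1, m1, m2, m2]
  ext w
  constructor
  · rintro ⟨z, hz, rfl⟩
    exact (key z).1 hz
  · intro hw
    refine ⟨((w.1 - y₀) / c, (w.2 - x₀) / c), ?_, ?_⟩
    · rw [key]
      have : sh y₀ x₀ c ((w.1 - y₀) / c, (w.2 - x₀) / c) = w := by
        have hc' : (c : ℂ) ≠ 0 := by exact_mod_cast hc.ne'
        simp only [sh]
        refine Prod.ext ?_ ?_
        · simp only; field_simp; ring
        · simp only; field_simp; ring
      rwa [this]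
    · have hc' : (c : ℂ) ≠ 0 := by exact_mod_cast hc.ne'
      simp only [sh]
      refine Prod.ext ?_ ?_
      · simp only; field_simp; ring
      · simp only; field_simp; ring

theorem Es_sh (al p : ℂ × ℂ → ℂ) (X om y₀ x₀ y x ρ : ℝ) {c : ℝ} (hc : 0 < c) :
    Es (LL (al ∘ sh y₀ x₀ c) (p ∘ sh y₀ x₀ c)) X om y x ρ =
      Es (LL al p) X om (y₀ + c * y) (x₀ + c * x) (c * ρ) := by
  have : LL (al ∘ sh y₀ x₀ c) (p ∘ sh y₀ x₀ c) = LL al p ∘ sh y₀ x₀ c := rfl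
  unfold Es
  rw [this, image_comp, sh_Pc X om y₀ x₀ y x ρ hc]

/-- **the centred form gives the row** -/
theorem tdst_of (H : TdC) : TdSt := by
  intro Λ b F q cv gr Xp op X om e V C₀ δ hXp hop hop2 hX hom hom2 he hV hC₀ hδ W hW hWδ
  obtain ⟨C₁, hC₁, τ₁, hτ₁, hτ₁1, Z₁, hZ₁, hZ₁s, H1⟩ :=
    H cv gr Xp op X om e V C₀ δ hXp hop hop2 hX hom hom2 he hV hC₀ hδ W hW hWδ
  have hXp0 : 0 < Xp := by linarith
  set c : ℝ := 1 / (8 * Xp) with hcdef
  have hc : 0 < c := by positivity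
  have hcX : c * Xp = 1 / 8 := by rw [hcdef]; field_simp
  have hc16 : c ≤ 1 / 16 := by
    rw [hcdef, div_le_div_iff₀ (by positivity) (by norm_num)]
    linarith
  refine ⟨C₁ / c, by positivity, c * τ₁, by positivity, by nlinarith,
    (fun a : (ℝ × ℝ) × (ℂ × ℂ) => sh a.1.1 a.1.2 c a.2) ''
      ((Icc (-(1 / 8) : ℝ) (1 / 8) ×ˢ Icc (-(1 / 8) : ℝ) (1 / 8)) ×ˢ Z₁), ?_, ?_, ?_⟩
  · refine ((isCompact_Icc.prod isCompact_Icc).prod hZ₁).image ?_
    unfold sh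
    fun_prop
  · rintro _ ⟨⟨⟨y, x⟩, z⟩, ⟨⟨hy, hx⟩, hz⟩, rfl⟩
    simp only at hy hx hz ⊢
    have hy' : |y| ≤ 1 / 8 := abs_le.2 hy
    have hx' : |x| ≤ 1 / 8 := abs_le.2 hx
    exact ⟨sh_box hc (by linarith) (by linarith) (hZ₁s hz).1, sh_Wd hc (hZ₁s hz).2⟩
  intro al p th S y₀ x₀ r hy₀ hx₀ hr hrτ hMV E₀ hE₀ hE₁ hGG A hA hZ r' hr' hr'τ z hz
  have hb1 : |y₀| + c ≤ 1 := by linarith
  have hb2 : |x₀| + c ≤ 1 := by linarith
  have S' := sw_sh S hc hb1 hb2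
  have hr0' : 0 < r' := hr.trans_le hr'
  have hrc : c * (r / c) = r := by field_simp
  have hrc' : c * (r' / c) = r' := by field_simp
  have hpt : sh y₀ x₀ c (pt 0 0 (r / c)) = pt y₀ x₀ r := by
    have hc' : (c : ℂ) ≠ 0 := by exact_mod_cast hc.ne'
    simp only [sh, pt]
    refine Prod.ext ?_ ?_
    · push_cast; field_simp; ring
    · push_cast; field_simp; ring
  have hshr : ∀ z : ℂ × ℂ, sh y₀ x₀ c (((r' / c : ℝ) : ℂ) • z) = tr y₀ x₀ ((r' : ℂ) • z) := by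
    intro z
    rw [sh_tr, smul_smul, ← Complex.ofReal_mul, hrc']
  have hprange : ∀ y x ρ : ℝ, |y| ≤ 1 / 2 → |x| ≤ 1 / 2 → 0 < ρ → ρ ≤ 1 / 4 →
      |y₀ + c * y| ≤ 1 / 4 ∧ |x₀ + c * x| ≤ 1 / 4 ∧ 0 < c * ρ ∧ c * ρ ≤ 1 / (4 * Xp) := by
    intro y x ρ hy hx hρ hρ'
    have k1 : |c * y| ≤ 1 / 32 := by rw [abs_mul, abs_of_pos hc]; nlinarith [abs_nonneg y]
    have k2 : |c * x| ≤ 1 / 32 := by rw [abs_mul, abs_of_pos hc]; nlinarith [abs_nonneg x]
    refine ⟨?_, ?_, by positivity, ?_⟩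
    · have := abs_add_le y₀ (c * y); linarith
    · have := abs_add_le x₀ (c * x); linarith
    · rw [le_div_iff₀ (by positivity)]
      have : c * ρ * (4 * Xp) = (c * Xp) * (4 * ρ) := by ring
      rw [this, hcX]; linarith
  have hG : Gd (fun y x h => Es (LL (al ∘ sh y₀ x₀ c) (p ∘ sh y₀ x₀ c)) Xp op y x h) C₀ E₀ 0 0
      (r / c) := by
    intro y x ρ hy hx hρ hρ'
    obtain ⟨k1, k2, k3, k4⟩ := hprange y x ρ hy hx hρ hρ'
    have h1 := hGG _ _ _ k1 k2 k3 k4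
    simp only
    rw [Es_sh al p Xp op y₀ x₀ y x ρ hc]
    refine h1.trans (le_of_eq ?_)
    have e1 : |y₀ + c * y - y₀| = c * |y - 0| := by
      rw [show y₀ + c * y - y₀ = c * (y - 0) by ring, abs_mul, abs_of_pos hc]
    have e2 : |x₀ + c * x - x₀| = c * |x - 0| := by
      rw [show x₀ + c * x - x₀ = c * (x - 0) by ring, abs_mul, abs_of_pos hc]
    have e3 : c * |y - 0| + c * |x - 0| + c * ρ + r = c * (|y - 0| + |x - 0| + ρ + r / c) := by
      field_simp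
    have e4 : c * (|y - 0| + |x - 0| + ρ + r / c) / r = (|y - 0| + |x - 0| + ρ + r / c) / (r / c) := by
      field_simp
    have e5 : c * (|y - 0| + |x - 0| + ρ + r / c) / (c * ρ) = (|y - 0| + |x - 0| + ρ + r / c) / ρ := by
      rw [mul_div_mul_left _ _ hc.ne']
    rw [e1, e2, e3, e4, e5]
  have hO : Osc (LL (al ∘ sh y₀ x₀ c) (p ∘ sh y₀ x₀ c)) Xp op
      (fun y x h => Es (LL (al ∘ sh y₀ x₀ c) (p ∘ sh y₀ x₀ c)) Xp op y x h) := by
    intro y x ρ hy hx hρ hρ' hE u hu v hv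
    obtain ⟨k1, k2, k3, k4⟩ := hprange y x ρ hy hx hρ hρ'
    simp only at hE ⊢
    rw [Es_sh al p Xp op y₀ x₀ y x ρ hc] at hE ⊢
    have k5 : Xp * (c * ρ) ≤ 1 / 4 := by
      have := mul_le_mul_of_nonneg_left k4 hXp0.le
      have e : Xp * (1 / (4 * Xp)) = 1 / 4 := by field_simp
      linarith
    rw [dist_eq_norm, LL_sh, LL_sh]
    refine osc_le S hop k3 hXp0.le (by linarith) (by linarith) hE le_rfl ?_ ?_
    · rw [← sh_Pc Xp op y₀ x₀ y x ρ hc]; exact mem_image_of_mem _ hu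
    · rw [← sh_Pc Xp op y₀ x₀ y x ρ hc]; exact mem_image_of_mem _ hv
  have hM : ∀ h : ℝ, r / c ≤ h → (X + 5) * h ≤ 1 →
      Md b F (th ∘ sh y₀ x₀ c) X om e h ∧
        |Vq F (al ∘ sh y₀ x₀ c) (th ∘ sh y₀ x₀ c) h| ≤ V := by
    intro h h1 h2
    have h3 : r ≤ c * h := by
      have := (div_le_iff₀ hc).1 h1
      linarith
    have hh : 0 < h := (div_pos hr hc).trans_le h1
    refine (mv_sh hc).1 (hMV _ h3 ?_)
    have : (X + 5) * (c * h) = c * ((X + 5) * h) := by ring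
    rw [this]
    nlinarith
  have h4 := H1 S' (r / c) E₀ (by positivity) hE₀ hE₁ hM hG hO A hA ?_ (r' / c) (by gcongr) ?_ z hz
  · obtain ⟨h5, h6⟩ := h4
    constructor
    · rw [← hshr]
      exact sh_box hc hb1 hb2 h5
    · rw [LL_sh, LL_sh, hshr, hpt] at h6
      refine h6.trans ?_
      have e1 : r' / c / (r / c) = r' / r := by field_simp
      rw [e1]
      have hrr : 1 ≤ r' / r := (one_le_div hr).2 hr'
      have hlog : 0 ≤ Real.log (r' / r) := Real.log_nonneg hrr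
      have hm : 0 ≤ A + max (Real.log E₀⁻¹) 0 := by positivity
      have hC1c : C₁ ≤ C₁ / c := by
        rw [le_div_iff₀ hc]; nlinarith
      have hx : C₁ + C₁ * (r' / c) * (A + max (Real.log E₀⁻¹) 0) ≤
          C₁ / c + C₁ / c * r' * (A + max (Real.log E₀⁻¹) 0) := by
        have e2 : C₁ * (r' / c) = C₁ / c * r' := by field_simp
        rw [e2]; linarith
      have hlog1 : 0 ≤ 1 + Real.log (r' / r) := by linarith
      exact mul_le_mul_of_nonneg_left (Real.exp_le_exp.2 hx)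
        (mul_nonneg (mul_nonneg hE₀.le (Real.sqrt_nonneg _)) hlog1)
  · intro w hw
    rw [LL_sh, LL_sh, hpt]
    exact hZ _ ⟨((y₀, x₀), w), ⟨⟨abs_le.1 hy₀, abs_le.1 hx₀⟩, hw⟩, rfl⟩
  · rw [div_le_iff₀ hc]; linarith

end Vale.Agent.P097.H509.St
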